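import Mathlib

/-!
# P032: local cocycles on columns (helper811)

A column of several circles is a closed walk `t : Fin 6 → τ` of tuple letters (`t k` = the letters of
all circles in the direction `k`).  `val f t = ∑ k, f k (t k) (t (k + 1))` for tables
`f : Fin 6 → τ → τ → ℕ`, modulo `p` (`p = 0`: exact).

* `locOK` / `loc_sound`: a finite check which gives that `val f` does not change under the legal
  changes of one tuple letter;
* `walkOK` / `walk_sound`: a finite check (dynamic programming along the six layers) which gives that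
  the value of every closed walk with given constraints is in a given list.
-/

namespace Vale.Agent.P032.H811

variable {τ : Type*}

/-- the value of a closed walk -/
def val (f : Fin 6 → τ → τ → ℕ) (t : Fin 6 → τ) : ℕ :=
  f 0 (t 0) (t 1) + f 1 (t 1) (t 2) + f 2 (t 2) (t 3) + f 3 (t 3) (t 4) + f 4 (t 4) (t 5) +
    f 5 (t 5) (t 0)

theorem val_eq_sum (f : Fin 6 → τ → τ → ℕ) (t : Fin 6 → τ) :
    val f t = ∑ k, f k (t k) (t (k + 1)) := by
  rw [Fin.sum_univ_six]; rfl

/-! ### invariance under one change -/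

/-- the local check -/
def locOK (p : ℕ) (TL : List τ) (adj mv : Fin 6 → τ → τ → Bool) (f : Fin 6 → τ → τ → ℕ) : Bool :=
  (List.finRange 6).all fun k => TL.all fun a => TL.all fun m => !(mv k a m) ||
    ((TL.filter fun x => adj (k - 1) x a && adj (k - 1) x m).all fun x =>
      (TL.filter fun y => adj k a y && adj k m y).all fun y =>
        (f (k - 1) x a + f k a y) % p == (f (k - 1) x m + f k m y) % p)

theorem loc_of {p : ℕ} {TL : List τ} {adj mv : Fin 6 → τ → τ → Bool} {f : Fin 6 → τ → τ → ℕ}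
    (h : locOK p TL adj mv f = true) (k : Fin 6) {a m x y : τ} (ha : a ∈ TL) (hm : m ∈ TL)
    (hx : x ∈ TL) (hy : y ∈ TL) (hmv : mv k a m = true) (h1 : adj (k - 1) x a = true)
    (h2 : adj (k - 1) x m = true) (h3 : adj k a y = true) (h4 : adj k m y = true) :
    (f (k - 1) x a + f k a y) % p = (f (k - 1) x m + f k m y) % p := by
  unfold locOK at h
  rw [List.all_eq_true] at h
  have h5 := h k (List.mem_finRange k)
  rw [List.all_eq_true] at h5
  have h6 := h5 a ha
  rw [List.all_eq_true] at h6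
  have h7 := h6 m hm
  rw [hmv] at h7
  simp only [Bool.not_true, Bool.false_or, List.all_eq_true, List.mem_filter, Bool.and_eq_true,
    beq_iff_eq] at h7
  exact h7 x ⟨hx, h1, h2⟩ y ⟨hy, h3, h4⟩

theorem mod_add_right {p a b c : ℕ} (h : a % p = b % p) : (a + c) % p = (b + c) % p := by
  rw [Nat.add_mod, h, ← Nat.add_mod]

/-- **Invariance**: a legal change of one tuple letter does not change the value -/
theorem loc_sound {p : ℕ} {TL : List τ} {adj mv : Fin 6 → τ → τ → Bool}
    {f : Fin 6 → τ → τ → ℕ} (h : locOK p TL adj mv f = true) {t t' : Fin 6 → τ} {k : Fin 6}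
    (ht : ∀ j, t j ∈ TL) (hta : ∀ j, adj j (t j) (t (j + 1)) = true)
    (ht' : t' k ∈ TL) (hta' : ∀ j, adj j (t' j) (t' (j + 1)) = true)
    (hne : ∀ j, j ≠ k → t' j = t j) (hmv : mv k (t k) (t' k) = true) :
    val f t' % p = val f t % p := by
  have e1 : k - 1 + 1 = k := sub_add_cancel k 1
  have hk1 : k + 1 ≠ k := (by decide : ∀ k : Fin 6, k + 1 ≠ k) k
  have hk2 : k - 1 ≠ k := (by decide : ∀ k : Fin 6, k - 1 ≠ k) k
  have key := loc_of h k (ht k) ht' (ht (k - 1)) (ht (k + 1)) hmv
    (by have := hta (k - 1); rwa [e1] at this)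
    (by have := hta' (k - 1); rwa [e1, hne _ hk2] at this) (hta k)
    (by have := hta' k; rwa [hne _ hk1] at this)
  have main : ∃ r : ℕ, val f t = (f (k - 1) (t (k - 1)) (t k) + f k (t k) (t (k + 1))) + r ∧
      val f t' = (f (k - 1) (t (k - 1)) (t' k) + f k (t' k) (t (k + 1))) + r := by
    clear key hmv ht hta ht' hta' e1 hk1 hk2 h
    have e0 : (0 : Fin 6) - 1 = 5 := rfl
    have e1 : (1 : Fin 6) - 1 = 0 := rfl
    have e2 : (2 : Fin 6) - 1 = 1 := rfl
    have e3 : (3 : Fin 6) - 1 = 2 := rfl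
    have e4 : (4 : Fin 6) - 1 = 3 := rfl
    have e5 : (5 : Fin 6) - 1 = 4 := rfl
    have g0 : (0 : Fin 6) + 1 = 1 := rfl
    have g1 : (1 : Fin 6) + 1 = 2 := rfl
    have g2 : (2 : Fin 6) + 1 = 3 := rfl
    have g3 : (3 : Fin 6) + 1 = 4 := rfl
    have g4 : (4 : Fin 6) + 1 = 5 := rfl
    have g5 : (5 : Fin 6) + 1 = 0 := rfl
    fin_cases k
    · simp only [Fin.zero_eta, Fin.isValue, e0, g0]
      refine ⟨f 1 (t 1) (t 2) + f 2 (t 2) (t 3) + f 3 (t 3) (t 4) + f 4 (t 4) (t 5), ?_, ?_⟩
      · unfold val; ring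
      · unfold val
        rw [hne 1 (by decide), hne 2 (by decide), hne 3 (by decide), hne 4 (by decide),
          hne 5 (by decide)]; ring
    · simp only [Fin.mk_one, Fin.isValue, e1, g1]
      refine ⟨f 2 (t 2) (t 3) + f 3 (t 3) (t 4) + f 4 (t 4) (t 5) + f 5 (t 5) (t 0), ?_, ?_⟩
      · unfold val; ring
      · unfold val
        rw [hne 0 (by decide), hne 2 (by decide), hne 3 (by decide), hne 4 (by decide),
          hne 5 (by decide)]; ring
    · simp only [Fin.reduceFinMk, Fin.isValue, e2, g2]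
      refine ⟨f 0 (t 0) (t 1) + f 3 (t 3) (t 4) + f 4 (t 4) (t 5) + f 5 (t 5) (t 0), ?_, ?_⟩
      · unfold val; ring
      · unfold val
        rw [hne 0 (by decide), hne 1 (by decide), hne 3 (by decide), hne 4 (by decide),
          hne 5 (by decide)]; ring
    · simp only [Fin.reduceFinMk, Fin.isValue, e3, g3]
      refine ⟨f 0 (t 0) (t 1) + f 1 (t 1) (t 2) + f 4 (t 4) (t 5) + f 5 (t 5) (t 0), ?_, ?_⟩
      · unfold val; ring
      · unfold val
        rw [hne 0 (by decide), hne 1 (by decide), hne 2 (by decide), hne 4 (by decide),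
          hne 5 (by decide)]; ring
    · simp only [Fin.reduceFinMk, Fin.isValue, e4, g4]
      refine ⟨f 0 (t 0) (t 1) + f 1 (t 1) (t 2) + f 2 (t 2) (t 3) + f 5 (t 5) (t 0), ?_, ?_⟩
      · unfold val; ring
      · unfold val
        rw [hne 0 (by decide), hne 1 (by decide), hne 2 (by decide), hne 3 (by decide),
          hne 5 (by decide)]; ring
    · simp only [Fin.reduceFinMk, Fin.isValue, e5, g5]
      refine ⟨f 0 (t 0) (t 1) + f 1 (t 1) (t 2) + f 2 (t 2) (t 3) + f 3 (t 3) (t 4), ?_, ?_⟩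
      · unfold val; ring
      · unfold val
        rw [hne 0 (by decide), hne 1 (by decide), hne 2 (by decide), hne 3 (by decide),
          hne 4 (by decide)]; ring
  obtain ⟨r, hr, hr'⟩ := main
  rw [hr, hr']
  exact (mod_add_right key).symm

/-! ### values of closed walks -/

/-- insert a value -/
def ins (v : ℕ) (l : List ℕ) : List ℕ := if l.contains v then l else v :: l

theorem mem_ins {v x : ℕ} {l : List ℕ} : x ∈ ins v l ↔ x = v ∨ x ∈ l := by
  unfold ins
  split_ifs with h
  · rw [List.contains_iff_mem] at h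
    exact ⟨Or.inr, fun h' => h'.elim (fun e => e ▸ h) id⟩
  · rw [List.mem_cons]

/-- the values reached at the letter `b` -/
def row (p : ℕ) (rel : τ → τ → Bool) (w : τ → τ → ℕ) (b : τ) : List (τ × List ℕ) → List ℕ
  | [] => []
  | s :: l => if rel s.1 b then s.2.foldr (fun v acc => ins ((v + w s.1 b) % p) acc)
      (row p rel w b l) else row p rel w b l

theorem mem_foldr {p c : ℕ} {l acc : List ℕ} {x : ℕ} :
    x ∈ l.foldr (fun v acc => ins ((v + c) % p) acc) acc ↔
      (∃ v ∈ l, x = (v + c) % p) ∨ x ∈ acc := by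
  induction l with
  | nil => simp
  | cons a l ih =>
    rw [List.foldr_cons, mem_ins, ih]
    constructor
    · rintro (h | ⟨v, hv, h⟩ | h)
      · exact Or.inl ⟨a, List.mem_cons_self, h⟩
      · exact Or.inl ⟨v, List.mem_cons_of_mem _ hv, h⟩
      · exact Or.inr h
    · rintro (⟨v, hv, h⟩ | h)
      · rcases List.mem_cons.1 hv with rfl | hv
        · exact Or.inl h
        · exact Or.inr (Or.inl ⟨v, hv, h⟩)
      · exact Or.inr (Or.inr h)

theorem mem_row {p : ℕ} {rel : τ → τ → Bool} {w : τ → τ → ℕ} {a b : τ} {S : List (τ × List ℕ)}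
    {vs : List ℕ} (hS : (a, vs) ∈ S) {v : ℕ} (hv : v ∈ vs) (hr : rel a b = true) :
    (v + w a b) % p ∈ row p rel w b S := by
  induction S with
  | nil => exact absurd hS List.not_mem_nil
  | cons s l ih =>
    unfold row
    rcases List.mem_cons.1 hS with h | h
    · rw [← h, if_pos hr, mem_foldr]
      exact Or.inl ⟨v, hv, rfl⟩
    · split_ifs with h1
      · rw [mem_foldr]; exact Or.inr (ih h)
      · exact ih h

/-- one layer -/
def stepL (p : ℕ) (rel : τ → τ → Bool) (w : τ → τ → ℕ) (S : List (τ × List ℕ)) :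
    List τ → List (τ × List ℕ)
  | [] => []
  | b :: l => match row p rel w b S with
    | [] => stepL p rel w S l
    | v :: vs => (b, v :: vs) :: stepL p rel w S l

theorem mem_stepL {p : ℕ} {rel : τ → τ → Bool} {w : τ → τ → ℕ} {b : τ} {S : List (τ × List ℕ)}
    {l : List τ} (hb : b ∈ l) {v : ℕ} (hv : v ∈ row p rel w b S) :
    (b, row p rel w b S) ∈ stepL p rel w S l := by
  induction l with
  | nil => exact absurd hb List.not_mem_nil
  | cons s l ih =>
    unfold stepL
    rcases List.mem_cons.1 hb with h | h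
    · subst h
      split
      · rename_i h1
        rw [h1] at hv
        exact absurd hv List.not_mem_nil
      · rename_i v' vs h1
        rw [h1]
        exact List.mem_cons_self
    · split
      · exact ih h
      · exact List.mem_cons_of_mem _ (ih h)

/-- a letter with its value at a layer -/
def Has (S : List (τ × List ℕ)) (a : τ) (v : ℕ) : Prop := ∃ vs, (a, vs) ∈ S ∧ v ∈ vs

theorem Has.step {p : ℕ} {rel : τ → τ → Bool} {w : τ → τ → ℕ} {a b : τ}
    {S : List (τ × List ℕ)} {l : List τ} {v : ℕ} (h : Has S a v) (hb : b ∈ l)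
    (hr : rel a b = true) : Has (stepL p rel w S l) b ((v + w a b) % p) := by
  obtain ⟨vs, h1, h2⟩ := h
  have h3 := mem_row (p := p) (w := w) h1 h2 hr
  exact ⟨_, mem_stepL hb h3, h3⟩

/-- the values of the closed walks which start at `a` -/
def walkVals (p : ℕ) (TL : Fin 6 → List τ) (rel : Fin 6 → τ → τ → Bool)
    (w : Fin 6 → τ → τ → ℕ) (a : τ) : List ℕ :=
  row p (rel 5) (w 5) a
    (stepL p (rel 4) (w 4)
      (stepL p (rel 3) (w 3)
        (stepL p (rel 2) (w 2)
          (stepL p (rel 1) (w 1)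
            (stepL p (rel 0) (w 0) [(a, [0])] (TL 1)) (TL 2)) (TL 3)) (TL 4)) (TL 5))

/-- the check for closed walks -/
def walkOK (p : ℕ) (V : List ℕ) (TL : Fin 6 → List τ) (rel : Fin 6 → τ → τ → Bool)
    (w : Fin 6 → τ → τ → ℕ) : Bool :=
  (TL 0).all fun a => (walkVals p TL rel w a).all fun v => V.contains v

/-- **Values of closed walks** -/
theorem walk_sound {p : ℕ} {V : List ℕ} {TL : Fin 6 → List τ} {rel : Fin 6 → τ → τ → Bool}
    {w : Fin 6 → τ → τ → ℕ} (h : walkOK p V TL rel w = true) {t : Fin 6 → τ}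
    (ht : ∀ j, t j ∈ TL j) (hr : ∀ j, rel j (t j) (t (j + 1)) = true) : val w t % p ∈ V := by
  unfold walkOK at h
  rw [List.all_eq_true] at h
  have h1 := h (t 0) (ht 0)
  rw [List.all_eq_true] at h1
  have s0 : Has [(t 0, [0])] (t 0) 0 := ⟨[0], List.mem_cons_self, List.mem_cons_self⟩
  have s1 := s0.step (p := p) (w := w 0) (ht 1) (hr 0)
  have s2 := s1.step (p := p) (w := w 1) (ht 2) (hr 1)
  have s3 := s2.step (p := p) (w := w 2) (ht 3) (hr 2)
  have s4 := s3.step (p := p) (w := w 3) (ht 4) (hr 3)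
  have s5 := s4.step (p := p) (w := w 4) (ht 5) (hr 4)
  obtain ⟨vs, h2, h3⟩ := s5
  have h4 := h1 _ (mem_row (p := p) (w := w 5) h2 h3 (hr 5))
  rw [List.contains_iff_mem] at h4
  have e : val w t % p = ((((((0 + w 0 (t 0) (t 1)) % p + w 1 (t 1) (t 2)) % p + w 2 (t 2) (t 3)) % p
      + w 3 (t 3) (t 4)) % p + w 4 (t 4) (t 5)) % p + w 5 (t 5) (t 0)) % p := by
    unfold val
    simp [Nat.mod_add_mod]
  rw [e]
  exact h4

end Vale.Agent.P032.H811
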